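import Vale.Agent.Lib.P200.NQ2

/-!
The Eisenbud-Green-Harris and lex-plus-powers statements in three variables, for every regular
sequence of forms, over every field. The definitions of the statement are in
`Vale/Agent/Lib/P200/NDefs.lean` and `Vale/Agent/Lib/P200/LDefs.lean`.
-/

namespace Vale.Agent.Results.P200.A_n3

open MvPolynomial Module Vale.Agent.Lib.P200

/-- For every field `K`, all `c ≤ 3`, all degrees `2 ≤ a 0 ≤ … ≤ a (c-1)`, every regular sequence `f`
of `c` forms of these degrees in `S = K[x₀, x₁, x₂]` and every ideal `I` containing it, the graded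
subspace `lexSpaceN hc a I` of the problem is an ideal `J`, with the Hilbert function of `I`, and
all graded Betti numbers satisfy `β_{p,j}(S/I) ≤ β_{p,j}(S/J)`. -/
theorem result {K : Type*} [Field K] {c : ℕ} (hc : c ≤ 3) (a : Fin c → ℕ) (ha : ∀ i, 2 ≤ a i)
    (hmono : Monotone a) (f : Fin c → MvPolynomial (Fin 3) K)
    (hf : ∀ i, (f i).IsHomogeneous (a i))
    (hreg : RingTheory.Sequence.IsWeaklyRegular (MvPolynomial (Fin 3) K) (List.ofFn f))
    (I : Ideal (MvPolynomial (Fin 3) K)) (hI : ∀ i, f i ∈ I) :
    ∃ J : Ideal (MvPolynomial (Fin 3) K),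
      J.restrictScalars K = lexSpaceN hc a I ∧
      (∀ d, finrank K (pieceN J d) = finrank K (pieceN I d)) ∧
      ∀ p j, bettiT I p j ≤ bettiT J p j :=
  lpp_n3 hc ha hmono hf hreg hI

end Vale.Agent.Results.P200.A_n3
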