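import Vale.Agent.Results.P200.A_gen
import Vale.Agent.Results.P200.A_n3

namespace Vale.Agent.Results.P200.A00_master

open MvPolynomial Module Vale.Agent.Lib.P200

/-- Over every field `K`. (1) In any number `n ≥ 3` of variables, for all `c ≤ n` and degrees
`2 ≤ a 0 ≤ … ≤ a (c-1)` with `a i > ∑_{j<i} (a j - 1)` for all indices `i ≥ 3` (no condition on
`a 0, a 1, a 2`), every regular sequence of forms of these degrees and every ideal `I` containing it,
the graded subspace `lexSpaceN hc a I` of the problem is an ideal `J` with the Hilbert function of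
`I`. (2) In three variables, for all `c ≤ 3` and all degrees, moreover all graded Betti numbers satisfy
`β_{p,j}(S/I) ≤ β_{p,j}(S/J)`. -/
theorem result {K : Type*} [Field K] :
    (∀ {n c : ℕ} (_ : 3 ≤ n) (hc : c ≤ n) (a : Fin c → ℕ) (_ : ∀ i, 2 ≤ a i) (_ : Monotone a)
      (_ : ∀ i : Fin c, 3 ≤ i.val →
        ∑ j ∈ Finset.univ.filter (fun j : Fin c => j < i), (a j - 1) < a i)
      (f : Fin c → MvPolynomial (Fin n) K) (_ : ∀ i, (f i).IsHomogeneous (a i))
      (_ : RingTheory.Sequence.IsWeaklyRegular (MvPolynomial (Fin n) K) (List.ofFn f))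
      (I : Ideal (MvPolynomial (Fin n) K)) (_ : ∀ i, f i ∈ I),
      ∃ J : Ideal (MvPolynomial (Fin n) K),
        J.restrictScalars K = lexSpaceN hc a I ∧
        ∀ d, finrank K (pieceN J d) = finrank K (pieceN I d)) ∧
    (∀ {c : ℕ} (hc : c ≤ 3) (a : Fin c → ℕ) (_ : ∀ i, 2 ≤ a i) (_ : Monotone a)
      (f : Fin c → MvPolynomial (Fin 3) K) (_ : ∀ i, (f i).IsHomogeneous (a i))
      (_ : RingTheory.Sequence.IsWeaklyRegular (MvPolynomial (Fin 3) K) (List.ofFn f))
      (I : Ideal (MvPolynomial (Fin 3) K)) (_ : ∀ i, f i ∈ I),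
      ∃ J : Ideal (MvPolynomial (Fin 3) K),
        J.restrictScalars K = lexSpaceN hc a I ∧
        (∀ d, finrank K (pieceN J d) = finrank K (pieceN I d)) ∧
        ∀ p j, bettiT I p j ≤ bettiT J p j) :=
  ⟨fun hn hc a ha hmono hfast f hf hreg I hI =>
      Vale.Agent.Results.P200.A_gen.result hn hc a ha hmono hfast f hf hreg I hI,
    fun hc a ha hmono f hf hreg I hI =>
      Vale.Agent.Results.P200.A_n3.result hc a ha hmono f hf hreg I hI⟩

end Vale.Agent.Results.P200.A00_master
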