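import Vale.Agent.Lib.P200.E12Final
import Vale.Agent.Lib.P200.LMain

/-!
The Eisenbud-Green-Harris and lex-plus-powers statements for ideals of `K[x₀,x₁,x₂]` containing a
regular sequence of three forms of arbitrary degrees, over every field.  The definitions of the
statement are in `Vale/Agent/Lib/P200/BDefs.lean` and `Vale/Agent/Lib/P200/LDefs.lean`.
-/

namespace Vale.Agent.Results.P200.A_all

open MvPolynomial Module Vale.Agent.Lib.P200

/-- For every field `K`, all `2 ≤ a ≤ b ≤ c`, every regular sequence `f` of forms of degrees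
`a, b, c` in `S = K[x₀, x₁, x₂]` and every ideal `I` containing it, the graded subspace
`lexSpaceT ![a, b, c] I` of the problem is an ideal `J`, with the Hilbert function of `I`,
and all graded Betti numbers satisfy `β_{p,j}(S/I) ≤ β_{p,j}(S/J)`. -/
theorem result {K : Type*} [Field K] (a b c : ℕ) (ha : 2 ≤ a) (hab : a ≤ b) (hbc : b ≤ c)
    (f : Fin 3 → MvPolynomial (Fin 3) K)
    (hf : ∀ i, (f i).IsHomogeneous (![a, b, c] i))
    (hreg : RingTheory.Sequence.IsWeaklyRegular (MvPolynomial (Fin 3) K) [f 0, f 1, f 2])
    (I : Ideal (MvPolynomial (Fin 3) K)) (hI : ∀ i, f i ∈ I) :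
    ∃ J : Ideal (MvPolynomial (Fin 3) K),
      J.restrictScalars K = lexSpaceT ![a, b, c] I ∧
      (∀ d, finrank K (pieceT J d) = finrank K (pieceT I d)) ∧
      ∀ p j, bettiT I p j ≤ bettiT J p j := by
  have h : FormSeq ![a, b, c] f :=
    ⟨by
      intro i
      fin_cases i
      · show 1 ≤ a
        omega
      · show 1 ≤ b
        omega
      · show 1 ≤ c
        omega, hf, regTriple_of_weaklyRegular' hreg⟩
  exact lpp_of_steps ha hab hbc h (lexStep_all h ha hab hbc) hI

end Vale.Agent.Results.P200.A_all
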