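import Vale.Agent.Lib.P200.NMain

/-!
The Eisenbud-Green-Harris statement for regular sequences whose degrees grow fast from the fourth
term on, in any number of variables and over every field. The definitions of the statement are in
`Vale/Agent/Lib/P200/NDefs.lean`.
-/

namespace Vale.Agent.Results.P200.A_gen

open MvPolynomial Module Vale.Agent.Lib.P200

/-- For every field `K`, all `n ≥ 3`, all `c ≤ n`, all degrees `2 ≤ a 0 ≤ … ≤ a (c-1)` with
`a i > ∑_{j<i} (a j - 1)` for all indices `i ≥ 3` (no condition on `a 0, a 1, a 2`), every regular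
sequence `f` of `c` forms of these degrees in `S = K[x₀, …, x_{n-1}]` and every ideal `I`
containing it, the graded subspace `lexSpaceN hc a I` of the problem is an ideal `J` with the
Hilbert function of `I`. -/
theorem result {K : Type*} [Field K] {n c : ℕ} (hn : 3 ≤ n) (hc : c ≤ n)
    (a : Fin c → ℕ) (ha : ∀ i, 2 ≤ a i) (hmono : Monotone a)
    (hfast : ∀ i : Fin c, 3 ≤ i.val →
      ∑ j ∈ Finset.univ.filter (fun j : Fin c => j < i), (a j - 1) < a i)
    (f : Fin c → MvPolynomial (Fin n) K) (hf : ∀ i, (f i).IsHomogeneous (a i))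
    (hreg : RingTheory.Sequence.IsWeaklyRegular (MvPolynomial (Fin n) K) (List.ofFn f))
    (I : Ideal (MvPolynomial (Fin n) K)) (hI : ∀ i, f i ∈ I) :
    ∃ J : Ideal (MvPolynomial (Fin n) K),
      J.restrictScalars K = lexSpaceN hc a I ∧
      ∀ d, finrank K (pieceN J d) = finrank K (pieceN I d) :=
  gen_of_SB (SB_all hn c) hc (le_refl c) ha hmono hfast hf hreg hI

end Vale.Agent.Results.P200.A_gen
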